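import Vale.Agent.P290.R2.H596.Spec2

/-! J5: composition of a map to a fibre with a holomorphic map to a K3 surface. -/

open Set Filter Metric
open scoped Topology

namespace Vale.Agent.P290.R2.H69

open Vale.Agent.P290 Vale.Agent.P290.K Vale.Agent.P290.H580 Vale.Agent.P290.H805
  Vale.Agent.P290.R2.H596

theorem comp : StComp := by
  intro T E _ _ F vol _ t X b hb lam hlam G z hG
  obtain ⟨-, hG2, hG3⟩ := hG
  have hGc : ContinuousAt G z := isInducing_val.continuousAt_iff.2 hG2
  have hbz := hb (G z)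
  obtain ⟨hb1, hb2⟩ := hbz
  have hc : ContinuousAt (fun y => b (G y)) z := ContinuousAt.comp (g := b) (f := G) hb1 hGc
  -- the coordinate expression of `G`
  have hψ : DifferentiableAt ℂ (fun y => chartAt C2 (G z) (G y)) z := hG3
  have hφ : DifferentiableAt ℂ
      (fun w => chartAt C2 (b (G z)) (b ((chartAt C2 (G z)).symm w)))
      ((fun y => chartAt C2 (G z) (G y)) z) := hb2
  have hs : ∀ᶠ y in 𝓝 z, G y ∈ (chartAt C2 (G z)).source :=
    hGc.eventually ((chartAt C2 (G z)).open_source.mem_nhds (mem_chart_source C2 (G z)))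
  have he : (fun y => chartAt C2 (b (G z)) (b (G y))) =ᶠ[𝓝 z]
      (fun w => chartAt C2 (b (G z)) (b ((chartAt C2 (G z)).symm w))) ∘
        (fun y => chartAt C2 (G z) (G y)) := by
    filter_upwards [hs] with y hy
    simp only [Function.comp]
    rw [(chartAt C2 (G z)).left_inv hy]
  have hd : DifferentiableAt ℂ (fun y => chartAt C2 (b (G z)) (b (G y))) z :=
    (hφ.comp z hψ).congr_of_eventuallyEq he
  refine ⟨⟨hc, ?_⟩, ?_⟩
  · simpa only [chartAt_self_eq, OpenPartialHomeomorph.refl_symm,
      OpenPartialHomeomorph.refl_apply, id] using hd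
  · have h1 := hlam (G z)
    unfold Ratio at h1
    rw [he.fderiv_eq, fderiv_comp z hφ hψ]
    have h2 : ((fderiv ℂ (fun w => chartAt C2 (b (G z)) (b ((chartAt C2 (G z)).symm w)))
          ((fun y => chartAt C2 (G z) (G y)) z)).comp
        (fderiv ℂ (fun y => chartAt C2 (G z) (G y)) z)).det =
        (fderiv ℂ (fun w => chartAt C2 (b (G z)) (b ((chartAt C2 (G z)).symm w)))
          ((fun y => chartAt C2 (G z) (G y)) z)).det *
        (fderiv ℂ (fun y => chartAt C2 (G z) (G y)) z).det := by
      exact LinearMap.det_comp _ _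
    rw [h2, ← mul_assoc, h1, mul_assoc]
    rfl

end Vale.Agent.P290.R2.H69
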