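import Vale.Agent.P290.R2.H596.Spec3
import Vale.Agent.P290.R2.H514.Phi

/-! S2, inverse part: a map `(P, snd)` close to the identity has an inverse. -/

open Set Filter Metric
open scoped Topology

namespace Vale.Agent.P290.R2.H69

open Vale.Agent.P290 Vale.Agent.P290.K Vale.Agent.P290.H580 Vale.Agent.P290.H805
  Vale.Agent.P290.R2.H596

/-- a linear map close to the identity is invertible -/
theorem exists_equiv_of_near (A : C2 →L[ℂ] C2)
    (hA : ‖A - ContinuousLinearMap.id ℂ C2‖ ≤ 1 / 2) : ∃ e : C2 ≃L[ℂ] C2,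
      (e : C2 →L[ℂ] C2) = A := by
  have h1 : ∀ v : C2, ‖v‖ ≤ 2 * ‖A v‖ := by
    intro v
    have h2 : ‖(A - ContinuousLinearMap.id ℂ C2) v‖ ≤ 1 / 2 * ‖v‖ :=
      (ContinuousLinearMap.le_opNorm _ v).trans (mul_le_mul_of_nonneg_right hA (norm_nonneg _))
    have h3 : v = A v - (A - ContinuousLinearMap.id ℂ C2) v := by
      simp
    have h4 : ‖v‖ ≤ ‖A v‖ + ‖(A - ContinuousLinearMap.id ℂ C2) v‖ := by
      calc ‖v‖ = ‖A v - (A - ContinuousLinearMap.id ℂ C2) v‖ := by rw [← h3]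
        _ ≤ _ := norm_sub_le _ _
    linarith
  have hinj : Function.Injective (A : C2 →ₗ[ℂ] C2) := by
    rw [injective_iff_map_eq_zero]
    intro v hv
    have h2 := h1 v
    have h3 : A v = 0 := hv
    rw [h3, norm_zero, mul_zero] at h2
    exact norm_le_zero_iff.1 h2
  exact ⟨(LinearEquiv.ofInjectiveEndo (A : C2 →ₗ[ℂ] C2) hinj).toContinuousLinearEquiv,
    ContinuousLinearMap.ext fun v => rfl⟩

theorem det_symm_mul (e : C2 ≃L[ℂ] C2) :
    (e : C2 →L[ℂ] C2).det * (e.symm : C2 →L[ℂ] C2).det = 1 := by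
  have h : ((e : C2 →L[ℂ] C2) : C2 →ₗ[ℂ] C2) ∘ₗ ((e.symm : C2 →L[ℂ] C2) : C2 →ₗ[ℂ] C2) =
      LinearMap.id := LinearMap.ext fun v => by simp
  have h2 := LinearMap.det_comp ((e : C2 →L[ℂ] C2) : C2 →ₗ[ℂ] C2)
    ((e.symm : C2 →L[ℂ] C2) : C2 →ₗ[ℂ] C2)
  rw [h, LinearMap.det_id] at h2
  exact h2.symm

/-- the determinant of the derivative of `(P, snd)` -/
theorem det_fderiv_pair {P : C2 → ℂ} {x : C2} (hP : DifferentiableAt ℂ P x) :
    (fderiv ℂ (fun y : C2 => ((P y, y.2) : C2)) x).det = fderiv ℂ P x (1, 0) := by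
  have h1 : HasFDerivAt (fun y : C2 => ((P y, y.2) : C2))
      ((fderiv ℂ P x).prod (ContinuousLinearMap.snd ℂ ℂ ℂ)) x :=
    hP.hasFDerivAt.prodMk hasFDerivAt_snd
  rw [h1.fderiv, C2_det]
  simp [E1, E2]

theorem inv_part (R R₁ δ : ℝ) (hR : 0 < R) (hRR : R < R₁) (hδ : 8 * δ ≤ R₁ - R) (P : C2 → ℂ)
    (hP : ∀ y ∈ ball (0 : C2) R₁, DifferentiableAt ℂ P y ∧ ‖P y - y.1‖ ≤ δ) (hP0 : P 0 = 0) :
    ∃ ψ : C2 → C2, ψ 0 = 0 ∧ ∀ y ∈ closedBall (0 : C2) R, DifferentiableAt ℂ ψ y ∧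
      ψ y ∈ ball (0 : C2) R₁ ∧ fderiv ℂ P (ψ y) (1, 0) * (fderiv ℂ ψ y).det = 1 := by
  obtain ⟨m, hm⟩ : ∃ m : ℝ, m = R₁ - R := ⟨_, rfl⟩
  have hm0 : 0 < m := by rw [hm]; linarith
  have hδ0 : 0 ≤ δ := (norm_nonneg _).trans (hP 0 (mem_ball_self (hR.trans hRR))).2
  -- the maps
  obtain ⟨Φ, hΦ⟩ : ∃ Φ : C2 → C2, Φ = fun y => (P y, y.2) := ⟨_, rfl⟩
  obtain ⟨g, hg⟩ : ∃ g : C2 → C2, g = fun y => Φ y - y := ⟨_, rfl⟩
  have hΦd : ∀ y ∈ ball (0 : C2) R₁, DifferentiableAt ℂ Φ y := by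
    intro y hy
    rw [hΦ]
    exact (hP y hy).1.prodMk differentiableAt_snd
  have hgd : ∀ y ∈ ball (0 : C2) R₁, DifferentiableAt ℂ g y := by
    intro y hy
    rw [hg]
    exact (hΦd y hy).sub differentiableAt_id
  have hgb : ∀ y ∈ ball (0 : C2) R₁, ‖g y‖ ≤ δ := by
    intro y hy
    have h1 : g y = (P y - y.1, 0) := by
      rw [hg, hΦ]
      ext <;> simp
    rw [h1, Prod.norm_def, norm_zero]
    exact max_le (hP y hy).2 hδ0
  -- the derivative
  have hg' : ∀ y ∈ ball (0 : C2) (R + m / 2), ‖fderiv ℂ g y‖ ≤ 1 / 4 := by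
    intro y hy
    have hsub : ball y (m / 2) ⊆ ball (0 : C2) R₁ := by
      refine ball_subset_ball' ?_
      rw [mem_ball] at hy
      linarith
    refine (norm_fderiv_le_of_bound (ρ := m / 2) (δ := δ) (by positivity)
      (fun z hz => (hgd z (hsub hz)).differentiableWithinAt) fun z hz => hgb z (hsub hz)).trans ?_
    rw [div_le_iff₀ (by positivity)]
    linarith
  have hlip : ∀ x ∈ ball (0 : C2) (R + m / 2), ∀ y ∈ ball (0 : C2) (R + m / 2),
      ‖g x - g y‖ ≤ 1 / 4 * ‖x - y‖ := by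
    intro x hx y hy
    refine Convex.norm_image_sub_le_of_norm_fderiv_le (𝕜 := ℂ) (s := ball (0 : C2) (R + m / 2))
      ?_ hg' (convex_ball _ _) hy hx
    intro z hz
    exact hgd z (ball_subset_ball (by linarith) hz)
  -- existence
  have hex : ∀ y ∈ ball (0 : C2) (R + m / 8), ∃ x ∈ closedBall (0 : C2) (R + m / 4), Φ x = y := by
    intro y hy
    obtain ⟨s, hs⟩ : ∃ s : Set C2, s = closedBall 0 (R + m / 4) := ⟨_, rfl⟩
    obtain ⟨f, hf⟩ : ∃ f : C2 → C2, f = fun c => y - g c := ⟨_, rfl⟩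
    have hmem : ∀ c ∈ s, c ∈ ball (0 : C2) (R + m / 2) := by
      intro c hc
      rw [hs] at hc
      exact closedBall_subset_ball (by linarith) hc
    have hmaps : MapsTo f s s := by
      intro c hc
      have h1 := hgb c (ball_subset_ball (by linarith) (hmem c hc))
      rw [mem_ball_zero_iff] at hy
      rw [hs, mem_closedBall_zero_iff, hf]
      calc ‖y - g c‖ ≤ ‖y‖ + ‖g c‖ := norm_sub_le _ _
        _ ≤ R + m / 4 := by linarith
    have hcon : ContractingWith (1 / 4) (hmaps.restrict f s s) := by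
      refine ⟨by
        rw [div_lt_one (by norm_num)]; norm_num, ?_⟩
      refine LipschitzWith.of_dist_le_mul fun x y' => ?_
      rw [Subtype.dist_eq, Subtype.dist_eq, dist_eq_norm, dist_eq_norm]
      have h1 := hlip y'.1 (hmem y'.1 y'.2) x.1 (hmem x.1 x.2)
      have h2 : ((hmaps.restrict f s s x : s) : C2) - ((hmaps.restrict f s s y' : s) : C2) =
          g y'.1 - g x.1 := by
        simp only [MapsTo.val_restrict_apply, hf]
        abel
      rw [h2]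
      rw [norm_sub_rev (y' : C2) x] at h1
      simpa using h1
    have hcl : IsClosed s := by rw [hs]; exact isClosed_closedBall
    have h0s : (0 : C2) ∈ s := by
      rw [hs]
      exact mem_closedBall_self (by positivity)
    obtain ⟨c, hc, hfix, -⟩ := hcon.exists_fixedPoint' hcl.isComplete hmaps h0s (edist_ne_top _ _)
    refine ⟨c, by rwa [hs] at hc, ?_⟩
    have h1 : y - g c = c := by
      have := hfix
      rw [hf] at this
      exact this
    have h2 : Φ c = c + g c := by rw [hg]; simp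
    rw [h2]
    exact (sub_eq_iff_eq_add.1 h1).symm
  choose! ψ hψ1 hψ2 using hex
  have hψ3 : ∀ y ∈ ball (0 : C2) (R + m / 8), ψ y ∈ ball (0 : C2) (R + m / 2) := fun y hy =>
    closedBall_subset_ball (by linarith) (hψ1 y hy)
  -- expansion
  have hexp : ∀ x ∈ ball (0 : C2) (R + m / 2), ∀ x' ∈ ball (0 : C2) (R + m / 2),
      ‖x - x'‖ ≤ 2 * ‖Φ x - Φ x'‖ := by
    intro x hx x' hx'
    have h1 := hlip x hx x' hx'
    have h2 : x - x' = (Φ x - Φ x') - (g x - g x') := by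
      rw [hg]
      simp only
      abel
    have h3 : ‖x - x'‖ ≤ ‖Φ x - Φ x'‖ + ‖g x - g x'‖ := by
      calc ‖x - x'‖ = ‖(Φ x - Φ x') - (g x - g x')‖ := by rw [← h2]
        _ ≤ _ := norm_sub_le _ _
    have h4 := norm_nonneg (Φ x - Φ x')
    linarith
  have h0 : (0 : C2) ∈ ball (0 : C2) (R + m / 8) := mem_ball_self (by positivity)
  have h0' : (0 : C2) ∈ ball (0 : C2) (R + m / 2) := mem_ball_self (by positivity)
  have hΦ0 : Φ 0 = 0 := by
    rw [hΦ]
    simp [hP0]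
  refine ⟨ψ, ?_, ?_⟩
  · have h1 := hexp (ψ 0) (hψ3 0 h0) 0 h0'
    rw [hψ2 0 h0, hΦ0, sub_self, norm_zero, mul_zero, sub_zero] at h1
    exact norm_le_zero_iff.1 h1
  · intro y hy
    have hyb : y ∈ ball (0 : C2) (R + m / 8) := closedBall_subset_ball (by linarith) hy
    have hev : ∀ᶠ y' in 𝓝 y, y' ∈ ball (0 : C2) (R + m / 8) := isOpen_ball.mem_nhds hyb
    have hx1 : ψ y ∈ ball (0 : C2) R₁ := ball_subset_ball (by linarith) (hψ3 y hyb)
    have hcont : ContinuousAt ψ y := by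
      have h2 : Tendsto (fun y' => 2 * ‖y' - y‖) (𝓝 y) (𝓝 0) := by
        have h3 : Continuous fun y' : C2 => 2 * ‖y' - y‖ := by fun_prop
        have h4 := h3.tendsto y
        simpa using h4
      rw [ContinuousAt, tendsto_iff_norm_sub_tendsto_zero]
      refine squeeze_zero' (Eventually.of_forall fun y' => norm_nonneg _) ?_ h2
      filter_upwards [hev] with y' hy'
      have h5 := hexp (ψ y') (hψ3 y' hy') (ψ y) (hψ3 y hyb)
      rwa [hψ2 y' hy', hψ2 y hyb] at h5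
    have hgx : ‖fderiv ℂ Φ (ψ y) - ContinuousLinearMap.id ℂ C2‖ ≤ 1 / 2 := by
      have h2 : HasFDerivAt g (fderiv ℂ Φ (ψ y) - ContinuousLinearMap.id ℂ C2) (ψ y) := by
        rw [hg]
        exact (hΦd _ hx1).hasFDerivAt.sub (hasFDerivAt_id _)
      rw [← h2.fderiv]
      exact (hg' _ (hψ3 y hyb)).trans (by norm_num)
    obtain ⟨e, he⟩ := exists_equiv_of_near _ hgx
    have hΦe : HasFDerivAt Φ (e : C2 →L[ℂ] C2) (ψ y) := by
      rw [he]
      exact (hΦd _ hx1).hasFDerivAt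
    have hψd : HasFDerivAt ψ (e.symm : C2 →L[ℂ] C2) y := by
      refine HasFDerivAt.of_local_left_inverse hcont hΦe ?_
      filter_upwards [hev] with y' hy' using hψ2 y' hy'
    refine ⟨hψd.differentiableAt, hx1, ?_⟩
    rw [hψd.fderiv, ← det_fderiv_pair (hP _ hx1).1, ← congrArg (fun F => (fderiv ℂ F (ψ y)).det) hΦ]
    rw [← he]
    exact det_symm_mul e

theorem flat : StFlat := by
  intro R R₁ hR hRR
  have hR₁ : 0 < R₁ := hR.trans hRR
  refine ⟨(R₁ - R) / (8 * R₁), div_pos (by linarith) (by positivity), ?_⟩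
  intro J hJ
  obtain ⟨P, hP0, hP⟩ := Vale.Agent.P290.R2.H514.phi_part R₁ ((R₁ - R) / (8 * R₁)) hR₁ J hJ
  obtain ⟨ψ, hψ0, hψ⟩ := inv_part R R₁ ((R₁ - R) / (8 * R₁) * R₁) hR hRR
    (by
      have : 8 * ((R₁ - R) / (8 * R₁) * R₁) = R₁ - R := by field_simp
      linarith) P (fun y hy => ⟨(hP y hy).1, (hP y hy).2.1⟩) hP0
  refine ⟨ψ, hψ0, fun y hy => ?_⟩
  obtain ⟨h1, h2, h3⟩ := hψ y hy
  refine ⟨h1, h2, ?_⟩
  rw [← (hP _ h2).2.2]
  exact h3

end Vale.Agent.P290.R2.H69
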