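import Vale.Agent.P290.R2.H596.Spec2

/-! J1: interpolation of bounded 1-jets near a given tuple of points of the central fibre. -/

open Set Filter Metric
open scoped Topology

namespace Vale.Agent.P290.R2.H69

open Vale.Agent.P290 Vale.Agent.P290.K Vale.Agent.P290.H580 Vale.Agent.P290.H805
  Vale.Agent.P290.R2.H596

/-- points near the point with the coordinate `a + w` -/
def NearJ {T E : Type} [TopologicalSpace T] [TopologicalSpace E] (F : Family T E) {k : ℕ}
    (x : Fin k → E) (a : Fin k → C2) (δ : ℝ) (j : Fin k) : Set ((Fin k → C2) × E) :=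
  {q | q.2 ∈ (F.triv (x j)).source ∧ ‖(F.triv (x j) q.2).2 - (a j + q.1 j)‖ < δ}

theorem isOpen_nearJ {T E : Type} [TopologicalSpace T] [TopologicalSpace E] (F : Family T E)
    {k : ℕ} (x : Fin k → E) (a : Fin k → C2) (δ : ℝ) (j : Fin k) : IsOpen (NearJ F x a δ j) := by
  have h1 : ContinuousOn (fun q : (Fin k → C2) × E =>
      ‖(F.triv (x j) q.2).2 - (a j + q.1 j)‖) (Prod.snd ⁻¹' (F.triv (x j)).source) := by
    refine ContinuousOn.norm (ContinuousOn.sub ?_ (by fun_prop))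
    exact continuous_snd.comp_continuousOn
      ((F.triv (x j)).continuousOn.comp continuous_snd.continuousOn fun q hq => hq)
  exact h1.isOpen_inter_preimage ((F.triv (x j)).open_source.preimage continuous_snd) isOpen_Iio

/-- the neighbourhoods of the graph given by conditions over finitely many closed sets -/
theorem mem_nhds_closed {X Y Z : Type} [TopologicalSpace X] [TopologicalSpace Y]
    [TopologicalSpace Z] {k : ℕ} (N : Fin k → Set (X × Y)) (hN : ∀ j, IsClosed (N j))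
    (O : Fin k → Set (Y × Z))
    (hO : ∀ j, IsOpen (O j)) (v : X × Y) (e : Z) (h : ∀ j, v ∈ N j → (v.2, e) ∈ O j) :
    {q : (X × Y) × Z | ∀ j, q.1 ∈ N j → (q.1.2, q.2) ∈ O j} ∈ 𝓝 (v, e) := by
  have h1 : ∀ j, ∀ᶠ q : (X × Y) × Z in 𝓝 (v, e), q.1 ∈ N j → (q.1.2, q.2) ∈ O j := by
    intro j
    by_cases hj : v ∈ N j
    · have hc : ContinuousAt (fun q : (X × Y) × Z => ((q.1.2, q.2) : Y × Z)) (v, e) := by fun_prop
      filter_upwards [hc.eventually ((hO j).mem_nhds (h j hj))] with q hq _ using hq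
    · have hc : ContinuousAt (fun q : (X × Y) × Z => q.1) (v, e) := by fun_prop
      filter_upwards [hc.eventually ((hN j).isOpen_compl.mem_nhds hj)] with q hq hq'
        using absurd hq' hq
  exact eventually_all.2 h1

theorem exists_nodesJ (k : ℕ) : ∃ n : Fin (k + 1) → ℂ, (∀ j, ‖n j‖ = 1) ∧ Function.Injective n := by
  have h := Complex.isPrimitiveRoot_exp (k + 1) (by omega)
  refine ⟨fun j => Complex.exp (2 * Real.pi * Complex.I / ((k + 1 : ℕ) : ℂ)) ^ (j : ℕ), ?_, ?_⟩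
  · intro j
    rw [norm_pow, h.norm'_eq_one (by omega), one_pow]
  · intro i j hij
    exact Fin.ext (h.pow_inj i.2 j.2 hij)

/-- interpolation by scalar functions on a finite-dimensional space -/
theorem interpV (hi : StInterp) {V : Type} [NormedAddCommGroup V] [NormedSpace ℂ V]
    [FiniteDimensional ℂ V] {k : ℕ} (z : Fin k → V) (hz : Function.Injective z) (c : Fin k → ℂ) :
    ∃ P : V → ℂ, Differentiable ℂ P ∧ ∀ j, P (z j) = c j := by
  let e : V ≃L[ℂ] (Fin (Module.finrank ℂ V) → ℂ) :=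
    (Module.finBasis ℂ V).equivFun.toContinuousLinearEquiv
  obtain ⟨P, hP, hPz⟩ := hi (Module.finrank ℂ V) k (fun j => e (z j))
    (e.injective.comp hz) c
  exact ⟨fun y => P (e y), hP.comp e.differentiable, hPz⟩

/-- a linear equation -/
theorem solve_linear {V : Type} [NormedAddCommGroup V] [NormedSpace ℂ V] (A : C2 →L[ℂ] C2)
    (hA : ‖A - ContinuousLinearMap.id ℂ C2‖ ≤ 1 / 2) (D L : V →L[ℂ] C2) :
    ∃ Lam : V →L[ℂ] C2, D + A.comp Lam = L ∧ ‖Lam‖ ≤ 2 * (‖L‖ + ‖D‖) := by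
  have h1 : ∀ v : C2, ‖v‖ ≤ 2 * ‖A v‖ := by
    intro v
    have h2 : ‖(A - ContinuousLinearMap.id ℂ C2) v‖ ≤ 1 / 2 * ‖v‖ :=
      (ContinuousLinearMap.le_opNorm _ v).trans (mul_le_mul_of_nonneg_right hA (norm_nonneg _))
    have h3 : v = A v - (A - ContinuousLinearMap.id ℂ C2) v := by
      simp
    have h4 : ‖v‖ ≤ ‖A v‖ + ‖(A - ContinuousLinearMap.id ℂ C2) v‖ := by
      calc ‖v‖ = ‖A v - (A - ContinuousLinearMap.id ℂ C2) v‖ := by rw [← h3]
        _ ≤ _ := norm_sub_le _ _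
    linarith
  have hinj : Function.Injective (A : C2 →ₗ[ℂ] C2) := by
    rw [injective_iff_map_eq_zero]
    intro v hv
    have h2 := h1 v
    have h3 : A v = 0 := hv
    rw [h3, norm_zero, mul_zero] at h2
    exact norm_le_zero_iff.1 h2
  let e : C2 ≃L[ℂ] C2 := (LinearEquiv.ofInjectiveEndo (A : C2 →ₗ[ℂ] C2) hinj).toContinuousLinearEquiv
  have he : ∀ v, e v = A v := fun v => rfl
  refine ⟨(e.symm : C2 →L[ℂ] C2).comp (L - D), ?_, ?_⟩
  · ext1 v
    have h5 : A (e.symm ((L - D) v)) = (L - D) v := by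
      rw [← he, e.apply_symm_apply]
    simp only [add_apply, ContinuousLinearMap.comp_apply,
      ContinuousLinearEquiv.coe_coe]
    rw [h5]
    simp
  · refine ContinuousLinearMap.opNorm_le_bound _ (by positivity) fun v => ?_
    simp only [ContinuousLinearMap.comp_apply, ContinuousLinearEquiv.coe_coe]
    have h5 := h1 (e.symm ((L - D) v))
    rw [← he, e.apply_symm_apply] at h5
    have h6 : ‖(L - D) v‖ ≤ (‖L‖ + ‖D‖) * ‖v‖ :=
      (ContinuousLinearMap.le_opNorm _ v).trans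
        (mul_le_mul_of_nonneg_right (norm_sub_le _ _) (norm_nonneg _))
    linarith

section
variable {V : Type} [NormedAddCommGroup V] [NormedSpace ℂ V]

/-- the linear maps `Lam` -/
theorem exists_lam {k : ℕ} {r ε₁ : ℝ} (hr0 : 0 < r) (hε₁ : 0 < ε₁) (z : V) (j : Fin (k + 1))
    (a : C2) (Φ : V × (Fin (k + 1) → C2) → C2)
    (hb : ∀ y ∈ closedBall z ε₁, ∀ w ∈ closedBall (0 : Fin (k + 1) → C2) r,
      ‖Φ (y, w) - (a + w j)‖ < r / 16)
    (hd : ∀ y ∈ closedBall z ε₁, ∀ w ∈ closedBall (0 : Fin (k + 1) → C2) r,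
      DifferentiableAt ℂ Φ (y, w)) (w : Fin (k + 1) → C2) (hwn : ‖w‖ < r / 2) (L : V →L[ℂ] C2) :
    ∃ Lam : V →L[ℂ] C2,
      (fderiv ℂ Φ (z, w)).comp ((ContinuousLinearMap.id ℂ V).prod
        ((ContinuousLinearMap.single ℂ (fun _ : Fin (k + 1) => C2) j).comp Lam)) = L ∧
        ‖Lam‖ ≤ 2 * (‖L‖ + r / 16 / ε₁) := by
  have hzz : z ∈ closedBall z ε₁ := mem_closedBall_self hε₁.le
  have hwr : w ∈ closedBall (0 : Fin (k + 1) → C2) r := by
    rw [mem_closedBall_zero_iff]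
    linarith
  have hΦd : HasFDerivAt Φ (fderiv ℂ Φ (z, w)) (z, w) := (hd _ hzz w hwr).hasFDerivAt
  obtain ⟨Df, hDf⟩ : ∃ Df, Df = fderiv ℂ Φ (z, w) := ⟨_, rfl⟩
  rw [← hDf] at hΦd ⊢
  -- the derivative in `z`
  obtain ⟨D, hD⟩ : ∃ D : V →L[ℂ] C2,
    D = Df.comp (ContinuousLinearMap.inl ℂ V (Fin (k + 1) → C2)) := ⟨_, rfl⟩
  obtain ⟨A, hA⟩ : ∃ A : C2 →L[ℂ] C2,
    A = Df.comp ((ContinuousLinearMap.inr ℂ V (Fin (k + 1) → C2)).comp
      (ContinuousLinearMap.single ℂ (fun _ : Fin (k + 1) => C2) j)) := ⟨_, rfl⟩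
  have hDn : ‖D‖ ≤ r / 16 / ε₁ := by
    have h3 : HasFDerivAt (fun y => Φ (y, w) - (a + w j)) D z := by
      have h4 : HasFDerivAt (fun y : V => (y, w))
          (ContinuousLinearMap.inl ℂ V (Fin (k + 1) → C2)) z :=
        (hasFDerivAt_id z).prodMk (hasFDerivAt_const w z)
      rw [hD]
      exact (HasFDerivAt.comp (g := Φ) z hΦd h4).sub_const _
    rw [← h3.fderiv]
    refine norm_fderiv_le_of_bound hε₁ ?_ ?_
    · intro y hy
      refine DifferentiableAt.differentiableWithinAt (DifferentiableAt.sub_const ?_ _)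
      exact DifferentiableAt.comp (g := Φ) (f := fun y : V => (y, w)) y
        (hd y (ball_subset_closedBall hy) w hwr)
        (differentiableAt_id.prodMk (differentiableAt_const _))
    · intro y hy
      exact (hb y (ball_subset_closedBall hy) w hwr).le
  have hmem : ∀ c ∈ ball (0 : C2) (r / 2),
      w + Pi.single (M := fun _ : Fin (k + 1) => C2) j c ∈
        closedBall (0 : Fin (k + 1) → C2) r := by
    intro c hc
    rw [mem_closedBall_zero_iff]
    rw [mem_ball_zero_iff] at hc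
    have h3 : ‖Pi.single (M := fun _ : Fin (k + 1) => C2) j c‖ ≤ r / 2 := by
      refine (pi_norm_le_iff_of_nonneg (by positivity)).2 fun i => ?_
      by_cases hij : i = j
      · subst hij
        rw [Pi.single_eq_same]
        exact hc.le
      · rw [Pi.single_eq_of_ne hij, norm_zero]
        positivity
    calc ‖w + Pi.single (M := fun _ : Fin (k + 1) => C2) j c‖
        ≤ ‖w‖ + ‖Pi.single (M := fun _ : Fin (k + 1) => C2) j c‖ := norm_add_le _ _
      _ ≤ r := by linarith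
  have hAn : ‖A - ContinuousLinearMap.id ℂ C2‖ ≤ 1 / 2 := by
    have h3 : HasFDerivAt (fun c : C2 =>
        Φ (z, w + Pi.single (M := fun _ : Fin (k + 1) => C2) j c) - (a + w j) - c)
        (A - ContinuousLinearMap.id ℂ C2) 0 := by
      have h4 : HasFDerivAt (fun c : C2 =>
          ((z, w + Pi.single (M := fun _ : Fin (k + 1) => C2) j c) :
            V × (Fin (k + 1) → C2)))
          ((ContinuousLinearMap.inr ℂ V (Fin (k + 1) → C2)).comp
            (ContinuousLinearMap.single ℂ (fun _ : Fin (k + 1) => C2) j)) 0 := by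
        have h5 : HasFDerivAt (fun c : C2 =>
            w + ContinuousLinearMap.single ℂ (fun _ : Fin (k + 1) => C2) j c)
            (ContinuousLinearMap.single ℂ (fun _ : Fin (k + 1) => C2) j) 0 :=
          ((ContinuousLinearMap.single ℂ (fun _ : Fin (k + 1) => C2) j).hasFDerivAt).const_add _
        exact (hasFDerivAt_const z (0 : C2)).prodMk h5
      have h6 : HasFDerivAt Φ Df (z, w + Pi.single (M := fun _ : Fin (k + 1) => C2) j 0) := by
        rw [Pi.single_zero, add_zero]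
        exact hΦd
      rw [hA]
      exact ((HasFDerivAt.comp (g := Φ) (0 : C2) h6 h4).sub_const _).sub (hasFDerivAt_id _)
    rw [← h3.fderiv]
    have h9 : r / 16 / (r / 2) ≤ 1 / 2 := by
      rw [div_le_iff₀ (by positivity)]
      linarith
    refine (norm_fderiv_le_of_bound (ρ := r / 2) (δ := r / 16) (by positivity) ?_ ?_).trans h9
    · intro c hc
      refine DifferentiableAt.differentiableWithinAt
        ((DifferentiableAt.sub_const ?_ _).sub differentiableAt_id)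
      exact DifferentiableAt.comp (g := Φ)
        (f := fun c : C2 => ((z, w + Pi.single (M := fun _ : Fin (k + 1) => C2) j c) :
            V × (Fin (k + 1) → C2))) c
        (hd _ hzz _ (hmem c hc))
        ((differentiableAt_const _).prodMk ((differentiableAt_const w).add
          (ContinuousLinearMap.single ℂ (fun _ : Fin (k + 1) => C2) j).differentiableAt))
    · intro c hc
      have h7 := (hb _ hzz _ (hmem c hc)).le
      have h8 : Φ (z, w + Pi.single (M := fun _ : Fin (k + 1) => C2) j c) - (a + w j) - c =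
          Φ (z, w + Pi.single (M := fun _ : Fin (k + 1) => C2) j c) -
            (a + (w + Pi.single (M := fun _ : Fin (k + 1) => C2) j c) j) := by
        rw [Pi.add_apply, Pi.single_eq_same]
        abel
      rw [h8]
      exact h7
  obtain ⟨Lam, hLam1, hLam2⟩ := solve_linear A hAn D L
  refine ⟨Lam, ?_, hLam2.trans (by linarith)⟩
  rw [← hLam1]
  ext1 y
  simp only [ContinuousLinearMap.comp_apply, ContinuousLinearMap.prod_apply,
    ContinuousLinearMap.id_apply, add_apply, hD, hA, ContinuousLinearMap.inl_apply,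
    ContinuousLinearMap.inr_apply]
  rw [← map_add]
  congr 1
  simp

/-- the map `W` -/
theorem exists_W {k : ℕ} {R C M r : ℝ} (hR0 : 0 ≤ R) (hM0 : 0 ≤ M) (hr0 : 0 < r)
    (z : Fin (k + 1) → V) (hzR : ∀ j, z j ∈ closedBall (0 : V) R)
    (χ : Fin (k + 1) → V → ℂ) (hχd : ∀ j, Differentiable ℂ (χ j))
    (hχz : ∀ j i, χ j (z i) = if i = j then 1 else 0)
    (hC : ∀ j, ∀ y ∈ closedBall (0 : V) R, ‖χ j y‖ ≤ C) (w : Fin (k + 1) → C2) (hw : ‖w‖ ≤ r)
    (Lam : Fin (k + 1) → V →L[ℂ] C2) (hLam : ∀ j, ‖Lam j‖ ≤ M) :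
    ∃ W : V → Fin (k + 1) → C2, (∀ y, DifferentiableAt ℂ W y) ∧
      (∀ y ∈ closedBall (0 : V) R, W y ∈
        closedBall (0 : Fin (k + 1) → C2) (r + C ^ 2 * (M * (2 * R)))) ∧
      (∀ j, W (z j) = w) ∧ ∀ j, HasFDerivAt W
        ((ContinuousLinearMap.single ℂ (fun _ : Fin (k + 1) => C2) j).comp (Lam j)) (z j) := by
  refine ⟨fun y j => w j + (χ j y) ^ 2 • Lam j (y - z j), ?_, ?_, ?_, ?_⟩
  · intro y
    refine differentiableAt_pi.2 fun j => ?_
    have h3 : DifferentiableAt ℂ (fun y => (χ j y) ^ 2) y := ((hχd j) y).pow 2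
    have h4 : DifferentiableAt ℂ (fun y => Lam j (y - z j)) y :=
      (Lam j).differentiableAt.comp y (differentiableAt_id.sub_const _)
    exact (differentiableAt_const _).add (h3.smul h4)
  · intro y hy
    rw [mem_closedBall_zero_iff]
    have hpos : 0 ≤ r + C ^ 2 * (M * (2 * R)) := by positivity
    refine (pi_norm_le_iff_of_nonneg hpos).2 fun j => ?_
    have h3 : ‖w j‖ ≤ r := (norm_le_pi_norm w j).trans hw
    have h4 : ‖Lam j (y - z j)‖ ≤ M * (2 * R) := by
      refine ((Lam j).le_opNorm _).trans (mul_le_mul (hLam j) ?_ (norm_nonneg _) hM0)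
      have h5 := mem_closedBall_zero_iff.1 hy
      have h6 := mem_closedBall_zero_iff.1 (hzR j)
      calc ‖y - z j‖ ≤ ‖y‖ + ‖z j‖ := norm_sub_le _ _
        _ ≤ 2 * R := by linarith
    have h5 : ‖(χ j y) ^ 2 • Lam j (y - z j)‖ ≤ C ^ 2 * (M * (2 * R)) := by
      rw [norm_smul, norm_pow]
      exact mul_le_mul (pow_le_pow_left₀ (norm_nonneg _) (hC j y hy) 2) h4 (norm_nonneg _)
        (by positivity)
    calc ‖w j + (χ j y) ^ 2 • Lam j (y - z j)‖
        ≤ ‖w j‖ + ‖(χ j y) ^ 2 • Lam j (y - z j)‖ := norm_add_le _ _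
      _ ≤ _ := by linarith
  · intro j
    funext i
    by_cases hij : j = i
    · subst hij
      simp
    · simp [hχz i j, hij]
  · intro j
    refine hasFDerivAt_pi'.2 fun i => ?_
    have h3 : HasFDerivAt (χ i) (fderiv ℂ (χ i) (z j)) (z j) := ((hχd i) (z j)).hasFDerivAt
    have h4 : HasFDerivAt (fun y => Lam i (y - z i)) (Lam i) (z j) := by
      have h6 := HasFDerivAt.comp (g := Lam i) (z j) (Lam i).hasFDerivAt
        ((hasFDerivAt_id (z j)).sub_const (z i))
      exact h6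
    have h5 := ((h3.pow 2).smul h4).const_add (w i)
    refine h5.congr_fderiv ?_
    ext1 y
    by_cases hij : j = i
    · subst hij
      simp [hχz]
    · simp [hχz i j, hij]

end

section
variable {T E : Type} [TopologicalSpace T] [TopologicalSpace E]

/-- the entire map to the central fibre -/
theorem stage1 (hL : StLocal) (hO : StOka) (hi : StInterp) (F : Family T E) (t₀ : T)
    [T2Space (Fib F t₀)] [CompactSpace (Fib F t₀)] [ConnectedSpace (Fib F t₀)]
    (hOka : All.IsOka (Fib F t₀)) {V : Type} [NormedAddCommGroup V] [NormedSpace ℂ V]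
    [FiniteDimensional ℂ V] {k : ℕ} (z : Fin (k + 1) → V) (hz : Function.Injective z)
    (x : Fin (k + 1) → E) (hx : ∀ j, F.p (x j) = t₀) :
    ∃ r > (0 : ℝ), ∃ G : V × (Fin (k + 1) → C2) → E, (∀ y, FH F t₀ G y) ∧
      ∀ j, ∀ w ∈ closedBall (0 : Fin (k + 1) → C2) r,
        (w, G (z j, w)) ∈ NearJ F x (fun j => (F.triv (x j) (x j)).2) (r / 16) j := by
  obtain ⟨n, hn1, hn⟩ := exists_nodesJ k
  obtain ⟨ρ₀, hρ₀, hG⟩ := hL T E F t₀ (k + 1) n hn1 hn x hx
  obtain ⟨a, ha⟩ : ∃ a : Fin (k + 1) → C2, a = fun j => (F.triv (x j) (x j)).2 := ⟨_, rfl⟩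
  have hta : ∀ j, F.triv (x j) (x j) = (t₀, a j) := by
    intro j
    rw [F.mk_eq _ (F.mem (x j)), hx j, ha]
  -- the radius
  have hr : ∀ᶠ w : Fin (k + 1) → C2 in 𝓝 0, ∀ j, (t₀, a j + w j) ∈ (F.triv (x j)).target := by
    refine eventually_all.2 fun j => ?_
    have hc : ContinuousAt (fun w : Fin (k + 1) → C2 => ((t₀, a j + w j) : T × C2)) 0 :=
      continuousAt_const.prodMk (continuousAt_const.add (continuous_apply j).continuousAt)
    refine hc.eventually ((F.triv (x j)).open_target.mem_nhds ?_)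
    simp only [Pi.zero_apply, add_zero]
    rw [← hta j]
    exact (F.triv (x j)).map_source (F.mem (x j))
  obtain ⟨ρ₁, hρ₁, hball⟩ := Metric.nhds_basis_closedBall.eventually_iff.1 hr
  obtain ⟨r, hrd⟩ : ∃ r : ℝ, r = min ρ₀ ρ₁ := ⟨_, rfl⟩
  have hr0 : 0 < r := by rw [hrd]; exact lt_min hρ₀ hρ₁
  have hrρ₀ : r ≤ ρ₀ := by rw [hrd]; exact min_le_left _ _
  have hrρ₁ : r ≤ ρ₁ := by rw [hrd]; exact min_le_right _ _
  have htarget : ∀ w ∈ closedBall (0 : Fin (k + 1) → C2) r, ∀ j,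
      (t₀, a j + w j) ∈ (F.triv (x j)).target := fun w hw =>
    hball (closedBall_subset_closedBall hrρ₁ hw)
  have hr16 : 0 < r / 16 := by positivity
  obtain ⟨u, hu, hun⟩ := hG r hr0 hrρ₀ (NearJ F x a (r / 16)) (by
    intro j w hw
    refine (isOpen_nearJ F x a (r / 16) j).mem_nhds ?_
    have haj : (F.triv (x j) (x j)).2 = a j := by rw [ha]
    change (w, (F.triv (x j)).symm (t₀, (F.triv (x j) (x j)).2 + w j)) ∈ NearJ F x a (r / 16) j
    rw [haj]
    refine ⟨(F.triv (x j)).map_target (htarget w hw j), ?_⟩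
    simp only
    rw [(F.triv (x j)).right_inv (htarget w hw j)]
    simpa using hr16)
  -- the Oka property
  have hK1 : Good (closedBall (0 : ℂ) 1 ×ˢ closedBall (0 : Fin (k + 1) → C2) r) :=
    ⟨(isCompact_closedBall _ _).prod (isCompact_closedBall _ _),
      (convex_closedBall _ _).prod (convex_closedBall _ _)⟩
  obtain ⟨G, hG1, hG2⟩ := hO T E F t₀ hOka (ℂ × (Fin (k + 1) → C2)) _ hK1
    ⟨(0, 0), by simp [hr0.le]⟩ u hu
    {q | ∀ j, q.1 ∈ (Prod.fst ⁻¹' {n j} : Set (ℂ × (Fin (k + 1) → C2))) →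
      (q.1.2, q.2) ∈ NearJ F x a (r / 16) j} (by
      intro v hv
      refine mem_nhds_closed _ (fun j => (isClosed_singleton).preimage continuous_fst) _
        (isOpen_nearJ F x a (r / 16)) v (u v) fun j hj => ?_
      have hj' : v.1 = n j := hj
      have := hun j v.2 hv.2
      rwa [← hj'] at this)
  obtain ⟨P, hP, hPz⟩ := interpV hi z hz n
  refine ⟨r, hr0, fun y => G (P y.1, y.2), fun y => FH.comp (u := G)
      (q := fun y : V × (Fin (k + 1) → C2) => (P y.1, y.2)) (hG1 _)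
      (((hP y.1).comp y differentiableAt_fst).prodMk differentiableAt_snd), ?_⟩
  intro j w hw
  have h2 : (w, G (n j, w)) ∈ NearJ F x a (r / 16) j :=
    hG2 (n j, w) ⟨by simp [hn1 j], hw⟩ j rfl
  rw [← ha]
  simp only
  rw [hPz j]
  exact h2

/-- the neighbourhoods of the points `z j` -/
theorem stage2 (F : Family T E) {t₀ : T} {V : Type} [NormedAddCommGroup V] [NormedSpace ℂ V]
    {k : ℕ} (z : Fin (k + 1) → V) (x : Fin (k + 1) → E) (a : Fin (k + 1) → C2) {r : ℝ}
    (G : V × (Fin (k + 1) → C2) → E) (hG : ∀ y, FH F t₀ G y)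
    (hn : ∀ j, ∀ w ∈ closedBall (0 : Fin (k + 1) → C2) r,
        (w, G (z j, w)) ∈ NearJ F x a (r / 16) j) :
    ∃ ε₁ > (0 : ℝ), ∀ j, ∀ y ∈ closedBall (z j) ε₁,
      ∀ w ∈ closedBall (0 : Fin (k + 1) → C2) r, (w, G (y, w)) ∈ NearJ F x a (r / 16) j := by
  have hGcont : Continuous G := continuous_iff_continuousAt.2 fun y => (hG y).2.1
  have h1 : ∀ j, ∀ᶠ ε₁ in 𝓝[>] (0 : ℝ), ∀ y ∈ closedBall (z j) ε₁,
      ∀ w ∈ closedBall (0 : Fin (k + 1) → C2) r, (w, G (y, w)) ∈ NearJ F x a (r / 16) j := by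
    intro j
    have hop : IsOpen ((fun y : V × (Fin (k + 1) → C2) => (y.2, G y)) ⁻¹'
        NearJ F x a (r / 16) j) :=
      (isOpen_nearJ F x a (r / 16) j).preimage (continuous_snd.prodMk hGcont)
    have hsub : ({z j} : Set V) ×ˢ closedBall (0 : Fin (k + 1) → C2) r ⊆
        (fun y : V × (Fin (k + 1) → C2) => (y.2, G y)) ⁻¹' NearJ F x a (r / 16) j := by
      rintro ⟨y, w⟩ ⟨hy, hw⟩
      have hy' : y = z j := hy
      subst hy'
      exact hn j w hw
    obtain ⟨U, W, hU, hW, hzU, hwW, hUW⟩ := generalized_tube_lemma isCompact_singleton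
      (isCompact_closedBall (0 : Fin (k + 1) → C2) r) hop hsub
    have hUn : U ∈ 𝓝 (z j) := hU.mem_nhds (hzU rfl)
    obtain ⟨ε, hε, hεU⟩ := Metric.nhds_basis_closedBall.mem_iff.1 hUn
    filter_upwards [Ioo_mem_nhdsGT hε] with ε' hε' y hy w hw
    exact hUW (show (y, w) ∈ U ×ˢ W from
      ⟨hεU (closedBall_subset_closedBall hε'.2.le hy), hwW hw⟩)
  obtain ⟨ε₁, h2, h3⟩ := ((eventually_all.2 h1).and self_mem_nhdsWithin).exists
  exact ⟨ε₁, h3, h2⟩

/-- the nearby tuples -/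
theorem stage3 (F : Family T E) {t₀ : T} {k : ℕ} (x : Fin (k + 1) → E)
    (hx : ∀ j, F.p (x j) = t₀) {r : ℝ} (hr0 : 0 < r) :
    ∀ᶠ x' : Fin (k + 1) → E in 𝓝 x, ∀ j, x' j ∈ (F.triv (x j)).source ∧
      ‖(F.triv (x j) (x' j)).2 - (F.triv (x j) (x j)).2‖ < r / 8 := by
  refine eventually_all.2 fun j => ?_
  have h1 : ∀ᶠ e in 𝓝 (x j), e ∈ (F.triv (x j)).source ∧
      ‖(F.triv (x j) e).2 - (F.triv (x j) (x j)).2‖ < r / 8 := by
    have h3 : ∀ᶠ e in 𝓝 (x j), e ∈ (F.triv (x j)).source :=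
      (F.triv (x j)).open_source.mem_nhds (F.mem (x j))
    refine h3.and ?_
    have h2 : ContinuousAt (fun e => ‖(F.triv (x j) e).2 - (F.triv (x j) (x j)).2‖) (x j) :=
      ((continuous_snd.continuousAt.comp ((F.triv (x j)).continuousAt (F.mem (x j)))).sub
        continuousAt_const).norm
    refine h2.eventually (Iio_mem_nhds ?_)
    change ‖(F.triv (x j) (x j)).2 - (F.triv (x j) (x j)).2‖ < r / 8
    rw [sub_self, norm_zero]
    positivity
  exact (continuous_apply j).continuousAt.eventually h1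

/-- the projection is continuous at the points of the total space -/
theorem continuousAt_pJ (F : Family T E) (x : E) : ContinuousAt F.p x := by
  have h1 : ContinuousAt (fun y => (F.triv x y).1) x :=
    continuous_fst.continuousAt.comp ((F.triv x).continuousAt (F.mem x))
  refine h1.congr ?_
  filter_upwards [(F.triv x).open_source.mem_nhds (F.mem x)] with y hy
  exact F.fst x y hy

/-- the parameter -/
theorem stage4 (hs : StSurj) (F : Family T E) {t : T} {V : Type} [NormedAddCommGroup V]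
    [NormedSpace ℂ V] {k : ℕ} (z : Fin (k + 1) → V) (x : Fin (k + 1) → E)
    (a : Fin (k + 1) → C2) {r : ℝ} (hr0 : 0 < r) (v : V × (Fin (k + 1) → C2) → E)
    (hvt : ∀ j, ∀ w ∈ closedBall (0 : Fin (k + 1) → C2) r, F.p (v (z j, w)) = t)
    (hvn : ∀ j, ∀ w ∈ closedBall (0 : Fin (k + 1) → C2) r, v (z j, w) ∈ (F.triv (x j)).source ∧
        ‖(F.triv (x j) (v (z j, w))).2 - (a j + w j)‖ < r / 16)
    (hdv : ∀ j, ∀ w ∈ closedBall (0 : Fin (k + 1) → C2) r,
      DifferentiableAt ℂ (fun q => (F.triv (x j) (v q)).2) (z j, w))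
    (x' : Fin (k + 1) → E) (ht : ∀ j, F.p (x' j) = t)
    (h1 : ∀ j, x' j ∈ (F.triv (x j)).source ∧ ‖(F.triv (x j) (x' j)).2 - a j‖ < r / 8) :
    ∃ w : Fin (k + 1) → C2, ‖w‖ < r / 2 ∧ ∀ j, v (z j, w) = x' j := by
  have hr16 : 0 < r / 16 := by positivity
  have hball : ∀ w ∈ ball (0 : Fin (k + 1) → C2) (r / 2),
      w ∈ closedBall (0 : Fin (k + 1) → C2) r := fun w hw =>
    ball_subset_closedBall (ball_subset_ball (by linarith) hw)
  obtain ⟨w, hw, hwb⟩ := hs (Fin (k + 1) → C2)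
    (fun w j => (F.triv (x j) (v (z j, w))).2 - a j) (r / 2) (by positivity)
    (by
      intro w hw
      refine differentiableAt_pi.2 fun j => DifferentiableAt.sub_const ?_ _
      exact DifferentiableAt.comp (g := fun y => (F.triv (x j) (v y)).2)
        (f := fun w : Fin (k + 1) → C2 => (z j, w)) w (hdv j w (hball w hw))
        ((differentiableAt_const _).prodMk differentiableAt_id))
    (by
      intro w hw
      have he : r / 2 / 8 = r / 16 := by ring
      rw [he]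
      refine (pi_norm_le_iff_of_nonneg hr16.le).2 fun j => ?_
      have h3 := (hvn j w (hball w hw)).2.le
      have h4 : ((fun j => (F.triv (x j) (v (z j, w))).2 - a j) - w) j =
          (F.triv (x j) (v (z j, w))).2 - (a j + w j) := by
        simp only [Pi.sub_apply]
        abel
      rw [h4]
      exact h3)
    (fun j => (F.triv (x j) (x' j)).2 - a j)
    ((pi_norm_le_iff_of_nonneg (by positivity)).2 fun j =>
      ((h1 j).2.le).trans (le_of_eq (by ring)))
  refine ⟨w, mem_ball_zero_iff.1 hw, fun j => ?_⟩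
  have h3 := congrFun hwb j
  have h4 : (F.triv (x j) (v (z j, w))).2 = (F.triv (x j) (x' j)).2 := sub_left_injective h3
  have h5 : F.triv (x j) (v (z j, w)) = F.triv (x j) (x' j) := by
    rw [F.mk_eq _ (hvn j w (hball w hw)).1, F.mk_eq _ (h1 j).1, h4, ht j,
      hvt j w (hball w hw)]
  exact (F.triv (x j)).injOn (hvn j w (hball w hw)).1 (h1 j).1 h5

/-- the values and the derivative of the final map at the points `z j` -/
theorem stage5a (F : Family T E) {t : T} {V : Type} [NormedAddCommGroup V]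
    [NormedSpace ℂ V] {k : ℕ} (z : V) (j : Fin (k + 1)) (x x' : E)
    (v : V × (Fin (k + 1) → C2) → E) (W : V → Fin (k + 1) → C2) (hWd : ∀ y, DifferentiableAt ℂ W y)
    (w : Fin (k + 1) → C2) (hWz : W z = w) (Lam L : V →L[ℂ] C2)
    (hWD : HasFDerivAt W
        ((ContinuousLinearMap.single ℂ (fun _ : Fin (k + 1) => C2) j).comp Lam) z)
    (hval : v (z, w) = x') (hsrc : v (z, w) ∈ (F.triv x).source) (hFH : FH F t v (z, w))
    (hLam : (fderiv ℂ (fun q => (F.triv x (v q)).2) (z, w)).comp ((ContinuousLinearMap.id ℂ V).prod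
        ((ContinuousLinearMap.single ℂ (fun _ : Fin (k + 1) => C2) j).comp Lam)) = L) :
    FH F t (fun y => v (y, W y)) z ∧ v (z, W z) = x' ∧ v (z, W z) ∈ (F.triv x).source ∧
      HasFDerivAt (fun y => (F.triv x (v (y, W y))).2) L z := by
  subst hWz
  refine ⟨FH.comp (u := v) (q := fun y : V => (y, W y)) hFH (differentiableAt_id.prodMk (hWd _)),
    hval, hsrc, ?_⟩
  have h3 : HasFDerivAt (fun q => (F.triv x (v q)).2)
      (fderiv ℂ (fun q => (F.triv x (v q)).2) (z, W z)) (z, W z) :=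
    (hFH.diff hsrc).hasFDerivAt
  have h4 : HasFDerivAt (fun y : V => (y, W y)) ((ContinuousLinearMap.id ℂ V).prod
        ((ContinuousLinearMap.single ℂ (fun _ : Fin (k + 1) => C2) j).comp Lam)) z :=
    (hasFDerivAt_id z).prodMk hWD
  have h5 := HasFDerivAt.comp (g := fun q => (F.triv x (v q)).2) z h3 h4
  rw [hLam] at h5
  exact h5

/-- the final map -/
theorem stage5 (hs : StSurj) (F : Family T E) {t : T} {V : Type} [NormedAddCommGroup V]
    [NormedSpace ℂ V] {k : ℕ} (z : Fin (k + 1) → V) (x : Fin (k + 1) → E)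
    (a : Fin (k + 1) → C2) {r ε₁ R C M Λ : ℝ} (hr0 : 0 < r) (hε₁ : 0 < ε₁) (hR0 : 0 ≤ R)
    (hclz : ∀ j, closedBall (z j) ε₁ ⊆ closedBall (0 : V) R)
    (hM : 2 * (Λ + r / 16 / ε₁) ≤ M) (hM0 : 0 ≤ M)
    (hrR' : r ≤ r + C ^ 2 * (M * (2 * R)))
    (χ : Fin (k + 1) → V → ℂ) (hχd : ∀ j, Differentiable ℂ (χ j))
    (hχz : ∀ j i, χ j (z i) = if i = j then 1 else 0)
    (hC : ∀ j, ∀ y ∈ closedBall (0 : V) R, ‖χ j y‖ ≤ C)
    (v : V × (Fin (k + 1) → C2) → E)
    (hvK : ∀ y ∈ closedBall (0 : V) R ×ˢ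
      closedBall (0 : Fin (k + 1) → C2) (r + C ^ 2 * (M * (2 * R))), FH F t v y)
    (hvn : ∀ j, ∀ y ∈ closedBall (z j) ε₁, ∀ w ∈ closedBall (0 : Fin (k + 1) → C2) r,
      v (y, w) ∈ (F.triv (x j)).source ∧
        ‖(F.triv (x j) (v (y, w))).2 - (a j + w j)‖ < r / 16)
    (x' : Fin (k + 1) → E) (ht : ∀ j, F.p (x' j) = t)
    (h1 : ∀ j, x' j ∈ (F.triv (x j)).source ∧ ‖(F.triv (x j) (x' j)).2 - a j‖ < r / 8)
    (L : Fin (k + 1) → V →L[ℂ] C2) (hLn : ∀ j, ‖L j‖ ≤ Λ) :
    ∃ g : V → E, (∀ y ∈ closedBall (0 : V) R, FH F t g y) ∧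
        ∀ j, FH F t g (z j) ∧ g (z j) = x' j ∧ g (z j) ∈ (F.triv (x j)).source ∧
          HasFDerivAt (fun y => (F.triv (x j) (g y)).2) (L j) (z j) := by
  have hzz : ∀ j, z j ∈ closedBall (z j) ε₁ := fun j => mem_closedBall_self hε₁.le
  have hdv : ∀ j, ∀ y ∈ closedBall (z j) ε₁, ∀ w ∈ closedBall (0 : Fin (k + 1) → C2) r,
      DifferentiableAt ℂ (fun q => (F.triv (x j) (v q)).2) (y, w) := by
    intro j y hy w hw
    have h3 : FH F t v (y, w) := hvK _ ⟨hclz j hy, closedBall_subset_closedBall hrR' hw⟩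
    exact h3.diff (hvn j y hy w hw).1
  have hvt : ∀ j, ∀ w ∈ closedBall (0 : Fin (k + 1) → C2) r, F.p (v (z j, w)) = t := by
    intro j w hw
    have h3 : FH F t v (z j, w) :=
      hvK _ ⟨hclz j (hzz j), closedBall_subset_closedBall hrR' hw⟩
    exact h3.1.self_of_nhds
  obtain ⟨w, hwn, hval⟩ := stage4 hs F (t := t) z x a hr0 v hvt
    (fun j w hw => hvn j _ (hzz j) w hw) (fun j w hw => hdv j _ (hzz j) w hw) x' ht h1
  have hwr : w ∈ closedBall (0 : Fin (k + 1) → C2) r := by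
    rw [mem_closedBall_zero_iff]
    linarith
  have hlin : ∀ j, ∃ Lam : V →L[ℂ] C2,
      (fderiv ℂ (fun q => (F.triv (x j) (v q)).2) (z j, w)).comp
        ((ContinuousLinearMap.id ℂ V).prod
        ((ContinuousLinearMap.single ℂ (fun _ : Fin (k + 1) => C2) j).comp Lam)) = L j ∧
        ‖Lam‖ ≤ M := by
    intro j
    obtain ⟨Lam, h3, h4⟩ := exists_lam hr0 hε₁ (z j) j (a j) (fun q => (F.triv (x j) (v q)).2)
      (fun y hy w hw => (hvn j y hy w hw).2) (hdv j) w hwn (L j)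
    refine ⟨Lam, h3, h4.trans (le_trans ?_ hM)⟩
    have := hLn j
    linarith
  choose Lam hLam hLamM using hlin
  obtain ⟨W, hWd, hWR, hWz, hWD⟩ := exists_W (C := C) hR0 hM0 hr0 z (fun j => hclz j (hzz j)) χ
    hχd hχz hC w (by linarith) Lam hLamM
  refine ⟨fun y => v (y, W y), fun y hy => ?_, fun j => ?_⟩
  · exact FH.comp (u := v) (q := fun y : V => (y, W y)) (hvK _ ⟨hy, hWR y hy⟩)
      (differentiableAt_id.prodMk (hWd y))
  · exact stage5a F (z j) j (x j) (x' j) v W hWd w (hWz j) (Lam j) (L j) (hWD j) (hval j)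
      (hvn j _ (hzz j) w hwr).1 (hvK _ ⟨hclz j (hzz j), closedBall_subset_closedBall hrR' hwr⟩)
      (hLam j)

end

theorem nearbyJet (hL : StLocal) (hO : StOka) (hs : StSurj) (hi : StInterp) : StNearbyJet := by
  intro T E _ _ F t₀ _ _ _ hOka V _ _ _ k z hz ρ Λ x hx
  classical
  obtain ⟨r, hr0, G, hG, hGn⟩ := stage1 hL hO hi F t₀ hOka z hz x hx
  obtain ⟨ε₁, hε₁, hεn⟩ := stage2 F z x (fun j => (F.triv (x j) (x j)).2) G hG hGn
  have hχ : ∀ j, ∃ χ : V → ℂ, Differentiable ℂ χ ∧ ∀ i, χ (z i) = if i = j then 1 else 0 :=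
    fun j => interpV hi z hz fun i => if i = j then 1 else 0
  choose χ hχd hχz using hχ
  obtain ⟨R, hRρ, hRz⟩ : ∃ R : ℝ, ρ ≤ R ∧ ∀ j, ‖z j‖ + ε₁ ≤ R := by
    obtain ⟨B, hB⟩ := (Set.finite_range fun j => ‖z j‖ + ε₁).bddAbove
    exact ⟨max ρ B, le_max_left _ _, fun j => (hB ⟨j, rfl⟩).trans (le_max_right _ _)⟩
  have hR0 : 0 ≤ R := by
    have := hRz 0
    have h2 := norm_nonneg (z 0)
    linarith
  have hclz : ∀ j, closedBall (z j) ε₁ ⊆ closedBall (0 : V) R := by
    intro j y hy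
    rw [mem_closedBall_zero_iff]
    rw [mem_closedBall_iff_norm] at hy
    calc ‖y‖ = ‖z j + (y - z j)‖ := by rw [add_sub_cancel]
      _ ≤ ‖z j‖ + ‖y - z j‖ := norm_add_le _ _
      _ ≤ R := (add_le_add le_rfl hy).trans (hRz j)
  obtain ⟨M, hM⟩ : ∃ M : ℝ, M = 2 * (|Λ| + r / 16 / ε₁) := ⟨_, rfl⟩
  have hM0 : 0 ≤ M := by rw [hM]; positivity
  have hcomp : IsCompact (closedBall (0 : V) R) := isCompact_closedBall 0 R
  obtain ⟨C, hC0, hC⟩ : ∃ C : ℝ, 0 ≤ C ∧ ∀ j, ∀ y ∈ closedBall (0 : V) R, ‖χ j y‖ ≤ C := by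
    have h1 : ∀ j, ∃ C : ℝ, ∀ y ∈ closedBall (0 : V) R, ‖χ j y‖ ≤ C := fun j =>
      hcomp.exists_bound_of_continuousOn (hχd j).continuous.continuousOn
    choose C hC using h1
    refine ⟨∑ j, |C j|, Finset.sum_nonneg fun j _ => abs_nonneg _, fun j y hy =>
      (hC j y hy).trans ((le_abs_self _).trans ?_)⟩
    exact Finset.single_le_sum (f := fun j => |C j|) (fun i _ => abs_nonneg _) (Finset.mem_univ j)
  have hrR' : r ≤ r + C ^ 2 * (M * (2 * R)) := by
    have : 0 ≤ C ^ 2 * (M * (2 * R)) := by positivity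
    linarith
  have hK2 : Good (closedBall (0 : V) R ×ˢ
      closedBall (0 : Fin (k + 1) → C2) (r + C ^ 2 * (M * (2 * R)))) :=
    ⟨hcomp.prod (isCompact_closedBall _ _),
      (convex_closedBall _ _).prod (convex_closedBall _ _)⟩
  have hdef := deformation (F := F) (t₀ := t₀) hK2 (u₀ := G) (Eventually.of_forall hG)
    {q | ∀ j, q.1 ∈ closedBall (z j) ε₁ ×ˢ closedBall (0 : Fin (k + 1) → C2) r →
      (q.1.2, q.2) ∈ NearJ F x (fun j => (F.triv (x j) (x j)).2) (r / 16) j} (by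
      intro y hy
      refine mem_nhds_closed _ (fun j => isClosed_closedBall.prod isClosed_closedBall) _
        (isOpen_nearJ F x _ (r / 16)) y _ fun j hj => ?_
      exact hεn j y.1 hj.1 y.2 hj.2)
  have hev2 := ((continuous_apply (0 : Fin (k + 1))).continuousAt.tendsto.eventually
    ((continuousAt_pJ F (x 0)).eventually ((hx 0).symm ▸ hdef)) : _)
  filter_upwards [stage3 F x hx hr0, hev2] with x' h1 h2 t ht L hLn
  rw [ht 0] at h2
  obtain ⟨v, hv, hvz⟩ := h2
  have hvK : ∀ y ∈ closedBall (0 : V) R ×ˢ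
      closedBall (0 : Fin (k + 1) → C2) (r + C ^ 2 * (M * (2 * R))), FH F t v y :=
    fun y hy => hv.self_of_nhdsSet y hy
  obtain ⟨g, hg1, hg2⟩ := stage5 hs F z x (fun j => (F.triv (x j) (x j)).2) hr0 hε₁ hR0 hclz
    (Λ := Λ) (M := M) (C := C)
    (by rw [hM]; have := le_abs_self Λ; linarith) hM0 hrR' χ hχd hχz hC v hvK
    (fun j y hy w hw => hvz (y, w) ⟨hclz j hy, closedBall_subset_closedBall hrR' hw⟩ j ⟨hy, hw⟩)
    x' ht h1 L hLn
  exact ⟨g, fun y hy => hg1 y (closedBall_subset_closedBall hRρ hy), hg2⟩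

end Vale.Agent.P290.R2.H69
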